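import Vale.Agent.Lib.P082.Logic

namespace Vale.Agent.Results.P082.UniformBound

open Vale.Agent.Lib.P082

/-- In every degree, the Kadison-Ringrose conjecture is equivalent to its quantitative form with
a universal bound on the norm of the cobounding cochain. -/
theorem result : ∀ k : ℕ, KR k ↔ UKR k :=
  fun _ => ⟨ukr_of_kr, kr_of_ukr⟩

end Vale.Agent.Results.P082.UniformBound
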